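import Mathlib

/-!
# P088 (helper222): closeness calculus in `C^k`
-/

open Set Filter
open scoped ContDiff Topology

noncomputable section

namespace Vale.Agent.P088.R2.H222

variable {E F : Type*} [NormedAddCommGroup E] [NormedSpace ℝ E] [NormedAddCommGroup F]
  [NormedSpace ℝ F] {U : Set E} {k : ℕ} {A B ε M : ℝ}

/-- smooth on the open set `U`, all derivatives of order `≤ k` bounded by `B` on `U` -/
structure Bk (k : ℕ) (U : Set E) (B : ℝ) (f : E → F) : Prop where
  o : IsOpen U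
  s : ContDiffOn ℝ ∞ f U
  b : ∀ j ≤ k, ∀ x ∈ U, ‖iteratedFDeriv ℝ j f x‖ ≤ B

theorem Bk.w {f : E → F} (h : Bk k U B f) {j : ℕ} (hj : j ≤ k) {x : E} (hx : x ∈ U) :
    ‖iteratedFDerivWithin ℝ j f U x‖ ≤ B := by
  rw [iteratedFDerivWithin_of_isOpen j h.o hx]
  exact h.b j hj x hx

theorem Bk.of_w {f : E → F} (o : IsOpen U) (s : ContDiffOn ℝ ∞ f U)
    (h : ∀ j ≤ k, ∀ x ∈ U, ‖iteratedFDerivWithin ℝ j f U x‖ ≤ B) : Bk k U B f :=
  ⟨o, s, fun j hj x hx => by
    rw [← iteratedFDerivWithin_of_isOpen j o hx]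
    exact h j hj x hx⟩

theorem Bk.congr {f g : E → F} (h : Bk k U B f) (hfg : ∀ x ∈ U, g x = f x) : Bk k U B g := by
  refine Bk.of_w h.o (h.s.congr hfg) fun j hj x hx => ?_
  rw [iteratedFDerivWithin_congr (fun y hy => hfg y hy) hx]
  exact h.w hj hx

theorem Bk.mono {f : E → F} (h : Bk k U B f) {k' : ℕ} (hk : k' ≤ k) {B' : ℝ} (hB : B ≤ B')
    {U' : Set E} (hU : U' ⊆ U) (ho : IsOpen U') : Bk k' U' B' f :=
  ⟨ho, h.s.mono hU, fun j hj x hx => (h.b j (hj.trans hk) x (hU hx)).trans hB⟩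

theorem Bk.le {f : E → F} (h : Bk k U B f) {B' : ℝ} (hB : B ≤ B') : Bk k U B' f :=
  h.mono le_rfl hB Subset.rfl h.o

theorem Bk.val {f : E → F} (h : Bk k U B f) {x : E} (hx : x ∈ U) : ‖f x‖ ≤ B := by
  have := h.b 0 (Nat.zero_le _) x hx
  rwa [norm_iteratedFDeriv_zero] at this

theorem Bk.nonneg {f : E → F} (h : Bk k U B f) {x : E} (hx : x ∈ U) : 0 ≤ B :=
  (norm_nonneg _).trans (h.val hx)

theorem Bk.add {f g : E → F} (hf : Bk k U A f) (hg : Bk k U B g) :
    Bk k U (A + B) (fun x => f x + g x) := by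
  refine Bk.of_w hf.o (hf.s.add hg.s) fun j hj x hx => ?_
  have e1 : (j : WithTop ℕ∞) ≤ ∞ := by exact_mod_cast le_top
  rw [fun_iteratedFDerivWithin_add_apply ((hf.s x hx).of_le e1)
    ((hg.s x hx).of_le e1) hf.o.uniqueDiffOn hx]
  exact (norm_add_le _ _).trans (add_le_add (hf.w hj hx) (hg.w hj hx))

theorem Bk.sub {f g : E → F} (hf : Bk k U A f) (hg : Bk k U B g) :
    Bk k U (A + B) (fun x => f x - g x) := by
  refine Bk.of_w hf.o (hf.s.sub hg.s) fun j hj x hx => ?_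
  have e1 : (j : WithTop ℕ∞) ≤ ∞ := by exact_mod_cast le_top
  rw [fun_iteratedFDerivWithin_sub_apply ((hf.s x hx).of_le e1)
    ((hg.s x hx).of_le e1) hf.o.uniqueDiffOn hx]
  exact (norm_sub_le _ _).trans (add_le_add (hf.w hj hx) (hg.w hj hx))

theorem Bk.const (o : IsOpen U) {c : F} (hc : ‖c‖ ≤ B) : Bk k U B (fun _ => c) := by
  refine ⟨o, contDiffOn_const, fun j _ x _ => ?_⟩
  rcases Nat.eq_zero_or_pos j with rfl | h
  · rwa [norm_iteratedFDeriv_zero]
  · rw [iteratedFDeriv_const_of_ne (by omega)]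
    simpa using (norm_nonneg _).trans hc

theorem Bk.sum {ι : Type*} (S : Finset ι) (o : IsOpen U) {f : ι → E → F} {A : ι → ℝ}
    (h : ∀ i ∈ S, Bk k U (A i) (f i)) : Bk k U (∑ i ∈ S, A i) (fun x => ∑ i ∈ S, f i x) := by
  classical
  induction S using Finset.induction_on with
  | empty => simpa using Bk.const (k := k) (B := 0) o (c := (0 : F)) (by simp)
  | insert j S hj ih =>
    simp only [Finset.sum_insert hj]
    exact (h j (Finset.mem_insert_self _ _)).add
      (ih fun i hi => h i (Finset.mem_insert_of_mem hi))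

theorem sum_choose_le {j : ℕ} (hj : j ≤ k) (hA : 0 ≤ A) (hB : 0 ≤ B) {a b : ℕ → ℝ}
    (ha : ∀ i ≤ k, a i ≤ A) (hb : ∀ i ≤ k, b i ≤ B) (hb0 : ∀ i, 0 ≤ b i) :
    ∑ i ∈ Finset.range (j + 1), (j.choose i : ℝ) * a i * b (j - i) ≤ 2 ^ k * A * B := by
  calc ∑ i ∈ Finset.range (j + 1), (j.choose i : ℝ) * a i * b (j - i) ≤
        ∑ i ∈ Finset.range (j + 1), (j.choose i : ℝ) * (A * B) := by
        refine Finset.sum_le_sum fun i hi => ?_
        have hi' : i ≤ j := Nat.lt_succ_iff.1 (Finset.mem_range.1 hi)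
        rw [mul_assoc]
        refine mul_le_mul_of_nonneg_left ?_ (Nat.cast_nonneg _)
        exact mul_le_mul (ha i (hi'.trans hj)) (hb _ ((Nat.sub_le _ _).trans hj)) (hb0 _) hA
    _ = 2 ^ j * (A * B) := by
        rw [← Finset.sum_mul]
        congr 1
        exact_mod_cast Nat.sum_range_choose j
    _ ≤ 2 ^ k * A * B := by
        rw [mul_assoc]
        gcongr
        norm_num

theorem Bk.smul {f : E → ℝ} {g : E → F} (hf : Bk k U A f) (hg : Bk k U B g) :
    Bk k U (2 ^ k * A * B) (fun x => f x • g x) := by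
  refine Bk.of_w hf.o (hf.s.smul hg.s) fun j hj x hx => ?_
  refine (norm_iteratedFDerivWithin_smul_le hf.s hg.s hf.o.uniqueDiffOn hx
    (n := j) (by exact_mod_cast le_top)).trans ?_
  exact sum_choose_le hj (hf.nonneg hx) (hg.nonneg hx) (fun i hi => hf.w hi hx)
    (fun i hi => hg.w hi hx) (fun i => norm_nonneg _)

theorem Bk.mul {f g : E → ℝ} (hf : Bk k U A f) (hg : Bk k U B g) :
    Bk k U (2 ^ k * A * B) (fun x => f x * g x) := hf.smul hg

theorem Bk.fd {f : E → F} (h : Bk (k + 1) U B f) : Bk k U B (fderiv ℝ f) := by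
  refine ⟨h.o, h.s.fderiv_of_isOpen h.o (by norm_num), fun j hj x hx => ?_⟩
  rw [norm_iteratedFDeriv_fderiv]
  exact h.b (j + 1) (by omega) x hx

theorem Bk.of_fd {f : E → F} (o : IsOpen U) (s : ContDiffOn ℝ ∞ f U) (h0 : ∀ x ∈ U, ‖f x‖ ≤ B)
    (h : Bk k U B (fderiv ℝ f)) : Bk (k + 1) U B f := by
  refine ⟨o, s, fun j hj x hx => ?_⟩
  rcases Nat.eq_zero_or_pos j with rfl | hj'
  · rw [norm_iteratedFDeriv_zero]
    exact h0 x hx
  · obtain ⟨i, rfl⟩ : ∃ i, j = i + 1 := ⟨j - 1, by omega⟩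
    rw [← norm_iteratedFDeriv_fderiv]
    exact h.b i (by omega) x hx

theorem Bk.diff {f : E → F} (h : Bk k U B f) {x : E} (hx : x ∈ U) : DifferentiableAt ℝ f x :=
  ((h.s x hx).contDiffAt (h.o.mem_nhds hx)).differentiableAt (by norm_num)

/-- composition with a linear map of norm `≤ 1` on the right -/
theorem norm_comp_right {G : Type*} [NormedAddCommGroup G] [NormedSpace ℝ G] (L : G →L[ℝ] E)
    (hL : ‖L‖ ≤ 1) {O : Set E} (hO : IsOpen O) {f : E → F} (hf : ContDiffOn ℝ ∞ f O) {x : G}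
    (hx : L x ∈ O) (j : ℕ) :
    ‖iteratedFDeriv ℝ j (fun y => f (L y)) x‖ ≤ ‖iteratedFDeriv ℝ j f (L x)‖ := by
  have hpre : IsOpen (L ⁻¹' O) := hO.preimage L.continuous
  have h1 := L.iteratedFDerivWithin_comp_right (f := f) (s := O) (n := ∞) hf hO.uniqueDiffOn
    hpre.uniqueDiffOn hx (i := j) (by exact_mod_cast le_top)
  rw [iteratedFDerivWithin_of_isOpen j hpre (show x ∈ L ⁻¹' O from hx),
    iteratedFDerivWithin_of_isOpen j hO hx] at h1
  have h2 : (f ∘ L) = fun y => f (L y) := rfl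
  rw [h2] at h1
  rw [h1]
  refine (ContinuousMultilinearMap.norm_compContinuousLinearMap_le _ _).trans ?_
  refine mul_le_of_le_one_right (norm_nonneg _) ?_
  exact Finset.prod_le_one (fun _ _ => norm_nonneg _) fun _ _ => hL

theorem Bk.comp_right {G : Type*} [NormedAddCommGroup G] [NormedSpace ℝ G] {O : Set E}
    {f : E → F} (h : Bk k O B f) (L : G →L[ℝ] E) (hL : ‖L‖ ≤ 1) {V : Set G} (hV : IsOpen V)
    (hVO : ∀ x ∈ V, L x ∈ O) : Bk k V B (fun y => f (L y)) :=
  ⟨hV, h.s.comp L.contDiff.contDiffOn hVO, fun j hj x hx =>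
    (norm_comp_right L hL h.o h.s (hVO x hx) j).trans (h.b j hj _ (hVO x hx))⟩

/-- a linear map -/
theorem Bk.lin (L : E →L[ℝ] F) (hU : IsOpen U) (hB : ‖L‖ ≤ B) (hv : ∀ x ∈ U, ‖L x‖ ≤ B) :
    Bk k U B (fun x => L x) := by
  rcases Nat.eq_zero_or_pos k with rfl | hk
  · refine ⟨hU, L.contDiff.contDiffOn, fun j hj x hx => ?_⟩
    obtain rfl : j = 0 := by omega
    rw [norm_iteratedFDeriv_zero]
    exact hv x hx
  · obtain ⟨i, rfl⟩ : ∃ i, k = i + 1 := ⟨k - 1, by omega⟩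
    refine Bk.of_fd hU L.contDiff.contDiffOn hv ?_
    refine (Bk.const (k := i) hU hB).congr fun x _ => ?_
    exact L.fderiv

/-! ## Functions of one variable -/

/-- `S` smooth on the open set `J ⊇ I`, derivatives of order `≤ k` bounded by `M` on `I` -/
structure Sk (k : ℕ) (I J : Set ℝ) (M : ℝ) (S : ℝ → ℝ) : Prop where
  o : IsOpen J
  ij : I ⊆ J
  s : ContDiffOn ℝ ∞ S J
  b : ∀ j ≤ k, ∀ t ∈ I, |iteratedDeriv j S t| ≤ M

variable {I J : Set ℝ} {S : ℝ → ℝ}

theorem Sk.der (h : Sk (k + 1) I J M S) : Sk k I J M (deriv S) :=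
  ⟨h.o, h.ij, h.s.deriv_of_isOpen h.o (by norm_num), fun j hj t ht => by
    rw [← iteratedDeriv_succ']
    exact h.b (j + 1) (by omega) t ht⟩

theorem Sk.mono {k' : ℕ} (h : Sk k I J M S) (hk : k' ≤ k) : Sk k' I J M S :=
  ⟨h.o, h.ij, h.s, fun j hj => h.b j (hj.trans hk)⟩

theorem Sk.diff (h : Sk k I J M S) {t : ℝ} (ht : t ∈ I) : DifferentiableAt ℝ S t :=
  ((h.s t (h.ij ht)).contDiffAt (h.o.mem_nhds (h.ij ht))).differentiableAt (by norm_num)

theorem exists_Sk (hS : ContDiff ℝ ∞ S) (hI : IsCompact I) (k : ℕ) :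
    ∃ M, 0 ≤ M ∧ Sk k I univ M S := by
  have h1 : ∀ j ≤ k, ∃ M, ∀ t ∈ I, |iteratedDeriv j S t| ≤ M := by
    intro j _
    obtain ⟨M, hM⟩ := hI.exists_bound_of_continuousOn (f := iteratedDeriv j S)
      (hS.continuous_iteratedDeriv j (by exact_mod_cast le_top)).continuousOn
    exact ⟨M, hM⟩
  induction k with
  | zero =>
    obtain ⟨M, hM⟩ := h1 0 le_rfl
    refine ⟨max M 0, le_max_right _ _, isOpen_univ, subset_univ _, hS.contDiffOn,
      fun j hj t ht => ?_⟩
    obtain rfl : j = 0 := by omega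
    exact (hM t ht).trans (le_max_left _ _)
  | succ k ih =>
    obtain ⟨M, hM0, hM⟩ := ih fun j hj => h1 j (by omega)
    obtain ⟨M', hM'⟩ := h1 (k + 1) le_rfl
    refine ⟨max M M', hM0.trans (le_max_left _ _), isOpen_univ, subset_univ _, hS.contDiffOn,
      fun j hj t ht => ?_⟩
    rcases Nat.lt_or_ge k j with h | h
    · obtain rfl : j = k + 1 := by omega
      exact (hM' t ht).trans (le_max_right _ _)
    · exact (hM.b j h t ht).trans (le_max_left _ _)

/-- constant of the composition bound -/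
def cB : ℕ → ℝ → ℝ → ℝ
  | 0, M, _ => M
  | k + 1, M, B => max M (2 ^ k * cB k M B * B)

/-- constant of the composition difference bound -/
def cC : ℕ → ℝ → ℝ → ℝ
  | 0, M, _ => M
  | k + 1, M, B => max M (2 ^ k * cC k M B * B + 2 ^ k * cB k M B)

theorem M_le_cB (k : ℕ) (M B : ℝ) : M ≤ cB k M B := by
  cases k with
  | zero => exact le_rfl
  | succ k => exact le_max_left _ _

theorem M_le_cC (k : ℕ) (M B : ℝ) : M ≤ cC k M B := by
  cases k with
  | zero => exact le_rfl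
  | succ k => exact le_max_left _ _

theorem comp_smooth {f : E → ℝ} (hS : Sk k I J M S) (hf : ContDiffOn ℝ ∞ f U)
    (hI : ∀ x ∈ U, f x ∈ I) : ContDiffOn ℝ ∞ (fun x => S (f x)) U :=
  hS.s.comp hf fun x hx => hS.ij (hI x hx)

theorem fderiv_comp' {f : E → ℝ} {x : E} (hf : DifferentiableAt ℝ f x)
    (hS : DifferentiableAt ℝ S (f x)) :
    fderiv ℝ (fun x => S (f x)) x = deriv S (f x) • fderiv ℝ f x := by
  have h := hS.hasDerivAt.comp_hasFDerivAt x hf.hasFDerivAt
  exact h.fderiv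

theorem Bk.comp {f : E → ℝ} (hS : Sk k I J M S) (hf : Bk k U B f) (hI : ∀ x ∈ U, f x ∈ I) :
    Bk k U (cB k M B) (fun x => S (f x)) := by
  induction k generalizing S with
  | zero =>
    refine ⟨hf.o, comp_smooth hS hf.s hI, fun j hj x hx => ?_⟩
    obtain rfl : j = 0 := by omega
    rw [norm_iteratedFDeriv_zero]
    exact hS.b 0 le_rfl _ (hI x hx)
  | succ k ih =>
    refine Bk.of_fd hf.o (comp_smooth hS hf.s hI) (fun x hx => ?_) ?_
    · exact (hS.b 0 (Nat.zero_le _) _ (hI x hx)).trans (M_le_cB _ _ _)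
    · have h1 := (ih hS.der (hf.mono (Nat.le_succ k) le_rfl Subset.rfl hf.o)).smul hf.fd
      refine (h1.congr fun x hx => ?_).le (le_max_right _ _)
      exact fderiv_comp' (hf.diff hx) (hS.diff (hI x hx))

theorem Bk.comp_sub {f g : E → ℝ} (hI : Convex ℝ I) (hS : Sk (k + 1) I J M S)
    (hf : Bk k U B f) (hg : Bk k U B g) (hfg : Bk k U ε (fun x => f x - g x))
    (hfI : ∀ x ∈ U, f x ∈ I) (hgI : ∀ x ∈ U, g x ∈ I) (hM : 0 ≤ M) (hε : 0 ≤ ε) :
    Bk k U (cC k M B * ε) (fun x => S (f x) - S (g x)) := by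
  have hval : ∀ {k : ℕ} {S : ℝ → ℝ}, Sk (k + 1) I J M S → ∀ x ∈ U,
      ‖f x - g x‖ ≤ ε → ‖S (f x) - S (g x)‖ ≤ M * ε := by
    intro k S hS x hx h
    have h1 := hI.norm_image_sub_le_of_norm_deriv_le (f := S) (C := M)
      (fun t ht => hS.diff ht) (fun t ht => by
        have := hS.b 1 (by omega) t ht
        rwa [iteratedDeriv_one] at this) (hgI x hx) (hfI x hx)
    exact h1.trans (mul_le_mul_of_nonneg_left h hM)
  induction k generalizing S with
  | zero =>
    refine ⟨hf.o, (comp_smooth hS hf.s hfI).sub (comp_smooth hS hg.s hgI), fun j hj x hx => ?_⟩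
    obtain rfl : j = 0 := by omega
    rw [norm_iteratedFDeriv_zero]
    exact hval hS x hx (hfg.val hx)
  | succ k ih =>
    refine Bk.of_fd hf.o ((comp_smooth hS hf.s hfI).sub (comp_smooth hS hg.s hgI))
      (fun x hx => ?_) ?_
    · exact (hval hS x hx (hfg.val hx)).trans
        (mul_le_mul_of_nonneg_right (M_le_cC _ _ _) hε)
    · have hf' := hf.mono (Nat.le_succ k) le_rfl Subset.rfl hf.o
      have hg' := hg.mono (Nat.le_succ k) le_rfl Subset.rfl hf.o
      have hfg' := hfg.mono (Nat.le_succ k) le_rfl Subset.rfl hf.o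
      have h1 := (ih hS.der hf' hg' hfg').smul hf.fd
      have h2 := (Bk.comp (hS.der.mono (Nat.le_succ k)) hg' hgI).smul hfg.fd
      have h3 := h1.add h2
      refine (h3.congr fun x hx => ?_).le ?_
      · have e1 : fderiv ℝ (fun x => S (f x) - S (g x)) x =
            deriv S (f x) • fderiv ℝ f x - deriv S (g x) • fderiv ℝ g x := by
          rw [fderiv_fun_sub, fderiv_comp' (hf.diff hx) (hS.diff (hfI x hx)),
            fderiv_comp' (hg.diff hx) (hS.diff (hgI x hx))]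
          · exact ((comp_smooth hS hf.s hfI x hx).contDiffAt
              (hf.o.mem_nhds hx)).differentiableAt (by norm_num)
          · exact ((comp_smooth hS hg.s hgI x hx).contDiffAt
              (hf.o.mem_nhds hx)).differentiableAt (by norm_num)
        have e2 : fderiv ℝ (fun x => f x - g x) x = fderiv ℝ f x - fderiv ℝ g x :=
          fderiv_fun_sub (hf.diff hx) (hg.diff hx)
        rw [e1, e2]
        module
      · have : cC (k + 1) M B = max M (2 ^ k * cC k M B * B + 2 ^ k * cB k M B) := rfl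
        rw [this]
        calc 2 ^ k * (cC k M B * ε) * B + 2 ^ k * cB k M B * ε =
              (2 ^ k * cC k M B * B + 2 ^ k * cB k M B) * ε := by ring
          _ ≤ _ := mul_le_mul_of_nonneg_right (le_max_right _ _) hε

end Vale.Agent.P088.R2.H222
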