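import Vale.Agent.P088.R2.H313.MuD

/-!
# P088 (helper222): the slope, `Cb`, `Cd` before `Cs`

The same as `H313.Mu.exists_slope`, with the constants `Cb`, `Cd` of `IsPhiU` chosen BEFORE `Cs`.
-/

open Set Filter Topology MeasureTheory
open scoped ContDiff

noncomputable section

namespace Vale.Agent.P088.R2.H222

open Vale.Agent.P088.R2.H313.Ph Vale.Agent.P088.R2.H313.Mu

/-- **Rows PHI and MU**, `Cb` and `Cd` do not depend on `Cs`. -/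
theorem exists_slope2 : ∃ Cm : ℕ → ℝ, (∀ j, 0 ≤ Cm j) ∧
    ∀ {ρ κ nm ν C1 C2 C3 al be : ℝ}, 0 < ρ → ρ < 1 → 0 < κ → 0 < nm → 0 < ν →
      0 < C1 → 0 < C2 → 0 < C3 → κ ≤ ρ * nm → ν ≤ nm → C2 * ν ≤ ρ / 40 → 0 < al → al < 1 →
      1 < be →
      ∃ (Cb : ℝ) (Cd : ℕ → ℝ), 0 < Cb ∧ (∀ j, 0 ≤ Cd j) ∧
      ∀ {Cs del : ℝ}, 1 ≤ Cs → 0 < del →
      ∃ Ms c : ℝ, Real.exp 100 ≤ Ms ∧ 0 < c ∧
        ∀ M0, Ms ≤ M0 → ∃ Φ μ : ℝ → ℝ, IsPhiU ρ κ nm ν C1 C2 C3 al be Cb Cd M0 Φ ∧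
          IsMu Cs del Cm M0 μ ∧ b0 del M0 ≤ 1 / 8 ∧ (∀ s, |μ s| ≤ 1 / 8) ∧
          (∀ u, Real.exp u ≤ 8 * Real.exp 1 ^ 2 * Cs * deriv Φ u →
            c * Real.exp u ≤ deriv (deriv Φ) u) ∧
          (∀ u, 4 * deriv Φ u ^ (13 / 5 : ℝ) ≤ M0 ^ (261 / 100 : ℝ)) := by
  obtain ⟨Cm, hCm, H⟩ := exists_mu
  refine ⟨Cm, hCm, ?_⟩
  intro ρ κ nm ν C1 C2 C3 al be hρ hρ1 hκ hnm hν h1 h2 h3 hκn hνn hc hal hal1 hbe
  obtain ⟨Ma, Cb, Cd, hMa, hCb, hCd, HΦ⟩ := exists_phiU hρ hρ1 hκ hnm hν h1 h2 h3 hκn hνn hc hal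
    hal1 (by linarith : 0 < be)
  refine ⟨Cb, Cd, hCb, hCd, ?_⟩
  intro Cs del hCs hdel
  obtain ⟨Mb, hMb, Hμ⟩ := H Cs del hCs hdel
  obtain ⟨Mc, HMc⟩ := b0_small del (by norm_num : (0 : ℝ) < 1 / 8)
  obtain ⟨Me, c, hc0, HMe⟩ := low (Cd := Cd) (Cb := Cb) (nm := nm) (al := al) hρ hκ hν h1 h2 h3 hbe
    (A := 8 * Real.exp 1 ^ 2 * Cs) (by positivity)
  obtain ⟨Mf, HMf⟩ := four_le Cb
  refine ⟨max Ma (max Mb (max Mc (max Me (max Mf (Real.exp 100))))), c, ?_, hc0,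
    fun M0 hM0 => ?_⟩
  · exact (le_max_right _ _).trans ((le_max_right _ _).trans ((le_max_right _ _).trans
      ((le_max_right _ _).trans (le_max_right _ _))))
  · simp only [max_le_iff] at hM0
    obtain ⟨a1, a2, a3, a4, a6, a5⟩ := hM0
    obtain ⟨Φ, hΦ⟩ := HΦ M0 a1
    obtain ⟨μ, hμ⟩ := Hμ M0 a2
    obtain ⟨b1, b2⟩ := HMc M0 a3
    have hMp : 0 < M0 := lt_of_lt_of_le (Real.exp_pos _) a5
    refine ⟨Φ, μ, hΦ, hμ, b1, fun s => ?_, fun u hu => HMe M0 a4 Φ hΦ u hu,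
      fun u => HMf M0 a6 _ (hMp.le.trans (hΦ.n1 u)) (hΦ.n2 u)⟩
    have h5 := hμ.bd s
    rw [abs_of_pos hdel] at b2
    have h6 : 0 ≤ del * Real.log M0 ^ (-(1 / 2) : ℝ) := by
      have := Real.rpow_nonneg (Real.log_nonneg (by
        have := Real.one_le_exp (by norm_num : (0 : ℝ) ≤ 100)
        linarith : (1 : ℝ) ≤ M0)) (-(1 / 2) : ℝ)
      positivity
    nlinarith

end Vale.Agent.P088.R2.H222
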